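import Mathlib

namespace Vale.Agent.Results.P097.LinearIntegral

open Set Filter Topology

/-- A closed `C^2` plane curve `s ↦ (X s, Y s)` of period `L`, parametrised by arclength,
with positive curvature (so it is traversed counterclockwise). -/
structure Table where
  X : ℝ → ℝ
  Y : ℝ → ℝ
  L : ℝ
  L_pos : 0 < L
  smoothX : ContDiff ℝ 2 X
  smoothY : ContDiff ℝ 2 Y
  perX : ∀ s, X (s + L) = X s
  perY : ∀ s, Y (s + L) = Y s
  unit_speed : ∀ s, deriv X s ^ 2 + deriv Y s ^ 2 = 1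
  curv_pos : ∀ s, 0 < deriv X s * deriv (deriv Y) s - deriv Y s * deriv (deriv X) s

lemma deriv_zero_of_eventually {f : ℝ → ℝ} {f' s : ℝ} (h : ∀ᶠ t in 𝓝 s, f t = 0)
    (hd : HasDerivAt f f' s) : f' = 0 := by
  have he : (fun _ : ℝ => (0 : ℝ)) =ᶠ[𝓝 s] f := by
    filter_upwards [h] with t ht using ht.symm
  exact (hd.congr_of_eventuallyEq he).unique (hasDerivAt_const s 0)

namespace Table

variable (T : Table)

lemma hasDerivX (s : ℝ) : HasDerivAt T.X (deriv T.X s) s :=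
  (T.smoothX.differentiable (by norm_num) s).hasDerivAt

lemma hasDerivY (s : ℝ) : HasDerivAt T.Y (deriv T.Y s) s :=
  (T.smoothY.differentiable (by norm_num) s).hasDerivAt

lemma hasDerivX' (s : ℝ) : HasDerivAt (deriv T.X) (deriv (deriv T.X) s) s := by
  have h : ContDiff ℝ 1 (deriv T.X) := by
    have := T.smoothX
    rw [show (2 : WithTop ℕ∞) = 1 + 1 by norm_num, contDiff_succ_iff_deriv] at this
    exact this.2.2
  exact (h.differentiable (by norm_num) s).hasDerivAt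

lemma hasDerivY' (s : ℝ) : HasDerivAt (deriv T.Y) (deriv (deriv T.Y) s) s := by
  have h : ContDiff ℝ 1 (deriv T.Y) := by
    have := T.smoothY
    rw [show (2 : WithTop ℕ∞) = 1 + 1 by norm_num, contDiff_succ_iff_deriv] at this
    exact this.2.2
  exact (h.differentiable (by norm_num) s).hasDerivAt

/-- the velocity and the acceleration are linearly independent -/
lemma lin_zero (s : ℝ) {α β : ℝ} (h1 : α * deriv T.X s + β * deriv T.Y s = 0)
    (h2 : α * deriv (deriv T.X) s + β * deriv (deriv T.Y) s = 0) : α = 0 ∧ β = 0 := by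
  have hk := T.curv_pos s
  have hα : α * (deriv T.X s * deriv (deriv T.Y) s - deriv T.Y s * deriv (deriv T.X) s) = 0 := by
    linear_combination deriv (deriv T.Y) s * h1 - deriv T.Y s * h2
  have hβ : β * (deriv T.X s * deriv (deriv T.Y) s - deriv T.Y s * deriv (deriv T.X) s) = 0 := by
    linear_combination deriv T.X s * h2 - deriv (deriv T.X) s * h1
  exact ⟨(mul_eq_zero.mp hα).resolve_right hk.ne', (mul_eq_zero.mp hβ).resolve_right hk.ne'⟩

/-- an affine function vanishing along an arc vanishes identically -/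
lemma affine_zero' {s : ℝ} {α β c : ℝ}
    (h : ∀ᶠ t in 𝓝 s, α * T.X t + β * T.Y t + c = 0) : α = 0 ∧ β = 0 ∧ c = 0 := by
  have h1 : ∀ᶠ t in 𝓝 s, α * deriv T.X t + β * deriv T.Y t = 0 := by
    filter_upwards [eventually_eventually_nhds.mpr h] with t ht
    exact deriv_zero_of_eventually ht
      ((((T.hasDerivX t).const_mul α).add ((T.hasDerivY t).const_mul β)).add_const c)
  have h2 : α * deriv (deriv T.X) s + β * deriv (deriv T.Y) s = 0 :=
    deriv_zero_of_eventually h1 (((T.hasDerivX' s).const_mul α).add ((T.hasDerivY' s).const_mul β))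
  obtain ⟨ha, hb⟩ := T.lin_zero s h1.self_of_nhds h2
  refine ⟨ha, hb, ?_⟩
  have := h.self_of_nhds
  rw [ha, hb] at this
  linarith

lemma affine_zero {a b : ℝ} (hab : a < b) {α β c : ℝ}
    (h : ∀ s ∈ Ioo a b, α * T.X s + β * T.Y s + c = 0) : α = 0 ∧ β = 0 ∧ c = 0 := by
  have hm : (a + b) / 2 ∈ Ioo a b := ⟨by linarith, by linarith⟩
  apply T.affine_zero' (s := (a + b) / 2)
  filter_upwards [Ioo_mem_nhds hm.1 hm.2] with t ht using h t ht

/-- every arc contains three non-collinear points -/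
lemma exists_triple {a b : ℝ} (hab : a < b) : ∃ t₁ ∈ Ioo a b, ∃ t₂ ∈ Ioo a b, ∃ t₃ ∈ Ioo a b,
    T.X t₁ * (T.Y t₂ - T.Y t₃) + T.X t₂ * (T.Y t₃ - T.Y t₁) + T.X t₃ * (T.Y t₁ - T.Y t₂) ≠ 0 := by
  by_contra hcon
  push Not at hcon
  have hm : (a + b) / 2 ∈ Ioo a b := ⟨by linarith, by linarith⟩
  have key : ∀ t ∈ Ioo a b, 1 * T.X t + 0 * T.Y t + (- T.X ((a + b) / 2)) = 0 := by
    intro t ht
    have := T.affine_zero hab (α := T.Y ((a + b) / 2) - T.Y t) (β := T.X t - T.X ((a + b) / 2))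
      (c := T.X ((a + b) / 2) * T.Y t - T.X t * T.Y ((a + b) / 2)) (by
        intro s hs
        have := hcon _ hm t ht s hs
        linear_combination this)
    linarith [this.2.1]
  have := (T.affine_zero hab key).1
  norm_num at this

/-- a function that is locally an affine function of the point of the curve is globally one -/
lemma global_aff {f : ℝ → ℝ}
    (h : ∀ s, ∃ a b c, ∀ᶠ t in 𝓝 s, f t = a * T.X t + b * T.Y t + c) :
    ∃ a b c, ∀ t, f t = a * T.X t + b * T.Y t + c := by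
  choose a b c habc using h
  have hloc : IsLocallyConstant (fun s => (a s, b s, c s)) := by
    rw [IsLocallyConstant.iff_eventually_eq]
    intro s
    filter_upwards [eventually_eventually_nhds.mpr (habc s)] with t ht
    have := T.affine_zero' (s := t) (α := a t - a s) (β := b t - b s) (c := c t - c s) (by
      filter_upwards [ht, habc t] with u hu1 hu2
      linear_combination hu1 - hu2)
    obtain ⟨h1, h2, h3⟩ := this
    simp only [Prod.mk.injEq]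
    exact ⟨by linarith, by linarith, by linarith⟩
  refine ⟨a 0, b 0, c 0, fun t => ?_⟩
  have h0 := hloc.apply_eq_of_preconnectedSpace t 0
  simp only [Prod.mk.injEq] at h0
  have := (habc t).self_of_nhds
  rw [h0.1, h0.2.1, h0.2.2] at this
  exact this

/-- Cramer's rule: if `f₁ X(tᵢ) + f₂ Y(tᵢ) + f₃` is an affine function of the point `γ(s)` for three
non-collinear points `γ(tᵢ)`, then so are `f₁, f₂, f₃`. -/
lemma local_aff {f₁ f₂ f₃ g₁ g₂ g₃ : ℝ → ℝ} {s₀ t₁ t₂ t₃ : ℝ}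
    (hD : T.X t₁ * (T.Y t₂ - T.Y t₃) + T.X t₂ * (T.Y t₃ - T.Y t₁) + T.X t₃ * (T.Y t₁ - T.Y t₂) ≠ 0)
    (h₁ : ∀ᶠ s in 𝓝 s₀, f₁ s * T.X t₁ + f₂ s * T.Y t₁ + f₃ s +
      (g₁ t₁ * T.X s + g₂ t₁ * T.Y s + g₃ t₁) = 0)
    (h₂ : ∀ᶠ s in 𝓝 s₀, f₁ s * T.X t₂ + f₂ s * T.Y t₂ + f₃ s +
      (g₁ t₂ * T.X s + g₂ t₂ * T.Y s + g₃ t₂) = 0)
    (h₃ : ∀ᶠ s in 𝓝 s₀, f₁ s * T.X t₃ + f₂ s * T.Y t₃ + f₃ s +
      (g₁ t₃ * T.X s + g₂ t₃ * T.Y s + g₃ t₃) = 0) :
    (∃ a b c, ∀ᶠ s in 𝓝 s₀, f₁ s = a * T.X s + b * T.Y s + c) ∧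
    (∃ a b c, ∀ᶠ s in 𝓝 s₀, f₂ s = a * T.X s + b * T.Y s + c) ∧
    (∃ a b c, ∀ᶠ s in 𝓝 s₀, f₃ s = a * T.X s + b * T.Y s + c) := by
  set D := T.X t₁ * (T.Y t₂ - T.Y t₃) + T.X t₂ * (T.Y t₃ - T.Y t₁) + T.X t₃ * (T.Y t₁ - T.Y t₂)
    with hDdef
  -- for arbitrary weights
  have gen : ∀ (f : ℝ → ℝ) (w₁ w₂ w₃ : ℝ),
      (∀ s, f s * D = (f₁ s * T.X t₁ + f₂ s * T.Y t₁ + f₃ s) * w₁ +
        (f₁ s * T.X t₂ + f₂ s * T.Y t₂ + f₃ s) * w₂ +
        (f₁ s * T.X t₃ + f₂ s * T.Y t₃ + f₃ s) * w₃) →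
      ∃ a b c, ∀ᶠ s in 𝓝 s₀, f s = a * T.X s + b * T.Y s + c := by
    intro f w₁ w₂ w₃ hf
    refine ⟨-(g₁ t₁ * w₁ + g₁ t₂ * w₂ + g₁ t₃ * w₃) / D, -(g₂ t₁ * w₁ + g₂ t₂ * w₂ + g₂ t₃ * w₃) / D,
      -(g₃ t₁ * w₁ + g₃ t₂ * w₂ + g₃ t₃ * w₃) / D, ?_⟩
    filter_upwards [h₁, h₂, h₃] with s e₁ e₂ e₃
    have := hf s
    field_simp
    linear_combination this + w₁ * e₁ + w₂ * e₂ + w₃ * e₃
  refine ⟨gen f₁ (T.Y t₂ - T.Y t₃) (T.Y t₃ - T.Y t₁) (T.Y t₁ - T.Y t₂) ?_,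
    gen f₂ (T.X t₃ - T.X t₂) (T.X t₁ - T.X t₃) (T.X t₂ - T.X t₁) ?_,
    gen f₃ (T.X t₂ * T.Y t₃ - T.X t₃ * T.Y t₂) (T.X t₃ * T.Y t₁ - T.X t₁ * T.Y t₃)
      (T.X t₁ * T.Y t₂ - T.X t₂ * T.Y t₁) ?_⟩ <;>
  · intro s
    rw [hDdef]
    ring

/-- a bi-affine function of two nearby points of the curve that vanishes has zero coefficients -/
lemma biaffine_zero {ε : ℝ} (hε : 0 < ε) {m₁₁ m₂₁ m₃₁ m₁₂ m₂₂ m₃₂ m₁₃ m₂₃ m₃₃ : ℝ}
    (h : ∀ s t, s < t → t < s + ε →
      (m₁₁ * T.X s + m₂₁ * T.Y s + m₃₁) * T.X t + (m₁₂ * T.X s + m₂₂ * T.Y s + m₃₂) * T.Y t +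
        (m₁₃ * T.X s + m₂₃ * T.Y s + m₃₃) = 0) :
    (m₁₁ = 0 ∧ m₂₁ = 0 ∧ m₃₁ = 0) ∧ (m₁₂ = 0 ∧ m₂₂ = 0 ∧ m₃₂ = 0) ∧
      (m₁₃ = 0 ∧ m₂₃ = 0 ∧ m₃₃ = 0) := by
  have key : ∀ s, (m₁₁ * T.X s + m₂₁ * T.Y s + m₃₁) = 0 ∧ (m₁₂ * T.X s + m₂₂ * T.Y s + m₃₂) = 0 ∧
      (m₁₃ * T.X s + m₂₃ * T.Y s + m₃₃) = 0 := fun s =>
    T.affine_zero (a := s) (b := s + ε) (by linarith) fun t ht => h s t ht.1 ht.2
  exact ⟨T.affine_zero zero_lt_one fun s _ => (key s).1,
    T.affine_zero zero_lt_one fun s _ => (key s).2.1,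
    T.affine_zero zero_lt_one fun s _ => (key s).2.2⟩

/-- If the gradient of a non-trivial quadratic polynomial is everywhere normal to the curve, the
curve lies on an ellipse. -/
lemma conic {p q r m₁ m₂ : ℝ} (hne : ¬ (p = 0 ∧ q = 0 ∧ r = 0 ∧ m₁ = 0 ∧ m₂ = 0))
    (H : ∀ s, (p * T.X s + q * T.Y s + m₁) * deriv T.X s +
      (q * T.X s + r * T.Y s + m₂) * deriv T.Y s = 0) :
    ∃ x₀ y₀ p' q' r' : ℝ, 0 < p' ∧ 0 < p' * r' - q' ^ 2 ∧
      ∀ s, p' * (T.X s - x₀) ^ 2 + 2 * q' * (T.X s - x₀) * (T.Y s - y₀) +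
        r' * (T.Y s - y₀) ^ 2 = 1 := by
  have hx := T.hasDerivX
  have hy := T.hasDerivY
  have hx' := T.hasDerivX'
  have hy' := T.hasDerivY'
  have hn1 : ∀ s, HasDerivAt (fun t => p * T.X t + q * T.Y t + m₁)
      (p * deriv T.X s + q * deriv T.Y s) s := fun s =>
    (((hx s).const_mul p).add ((hy s).const_mul q)).add_const m₁
  have hn2 : ∀ s, HasDerivAt (fun t => q * T.X t + r * T.Y t + m₂)
      (q * deriv T.X s + r * deriv T.Y s) s := fun s =>
    (((hx s).const_mul q).add ((hy s).const_mul r)).add_const m₂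
  -- the quadratic polynomial is constant along the curve
  have hG : ∀ s t, p * (T.X s * T.X s) + 2 * q * (T.X s * T.Y s) + r * (T.Y s * T.Y s) +
      2 * m₁ * T.X s + 2 * m₂ * T.Y s = p * (T.X t * T.X t) + 2 * q * (T.X t * T.Y t) +
      r * (T.Y t * T.Y t) + 2 * m₁ * T.X t + 2 * m₂ * T.Y t := by
    have hd : ∀ s, HasDerivAt (fun s => p * (T.X s * T.X s) + 2 * q * (T.X s * T.Y s) +
        r * (T.Y s * T.Y s) + 2 * m₁ * T.X s + 2 * m₂ * T.Y s) 0 s := by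
      intro s
      have := ((((((hx s).mul (hx s)).const_mul p).add (((hx s).mul (hy s)).const_mul (2 * q))).add
        (((hy s).mul (hy s)).const_mul r)).add ((hx s).const_mul (2 * m₁))).add
        ((hy s).const_mul (2 * m₂))
      refine this.congr_deriv ?_
      linear_combination 2 * H s
    exact is_const_of_deriv_eq_zero (fun s => (hd s).differentiableAt) fun s => (hd s).deriv
  -- differentiate the hypothesis
  have H2 : ∀ s, p * deriv T.X s ^ 2 + 2 * q * deriv T.X s * deriv T.Y s + r * deriv T.Y s ^ 2 +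
      ((p * T.X s + q * T.Y s + m₁) * deriv (deriv T.X) s +
        (q * T.X s + r * T.Y s + m₂) * deriv (deriv T.Y) s) = 0 := by
    intro s
    have := deriv_zero_of_eventually (Eventually.of_forall H)
      (((hn1 s).mul (hx' s)).add ((hn2 s).mul (hy' s)))
    linear_combination this
  have hdet : 0 < p * r - q ^ 2 := by
    by_contra hle
    push Not at hle
    obtain ⟨e₁, e₂, hene, hiso⟩ : ∃ e₁ e₂ : ℝ, (e₁ ≠ 0 ∨ e₂ ≠ 0) ∧
        p * e₁ ^ 2 + 2 * q * e₁ * e₂ + r * e₂ ^ 2 = 0 := by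
      by_cases hp : p = 0
      · exact ⟨1, 0, Or.inl one_ne_zero, by rw [hp]; ring⟩
      · refine ⟨-q + Real.sqrt (q ^ 2 - p * r), p, Or.inr hp, ?_⟩
        have hs : Real.sqrt (q ^ 2 - p * r) ^ 2 = q ^ 2 - p * r := Real.sq_sqrt (by linarith)
        linear_combination p * hs
    obtain ⟨c, -, hc⟩ := exists_hasDerivAt_eq_zero T.L_pos
      (f := fun s => e₁ * T.Y s - e₂ * T.X s)
      (f' := fun s => e₁ * deriv T.Y s - e₂ * deriv T.X s)
      (fun s _ => (((hy s).const_mul e₁).sub ((hx s).const_mul e₂)).continuousAt.continuousWithinAt)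
      (by
        have h1 := T.perX 0
        have h2 := T.perY 0
        rw [zero_add] at h1 h2
        simp only [h1, h2])
      (fun s _ => ((hy s).const_mul e₁).sub ((hx s).const_mul e₂))
    have hQT : p * deriv T.X c ^ 2 + 2 * q * deriv T.X c * deriv T.Y c + r * deriv T.Y c ^ 2 = 0 := by
      have h1 : e₁ ^ 2 * (p * deriv T.X c ^ 2 + 2 * q * deriv T.X c * deriv T.Y c +
          r * deriv T.Y c ^ 2) = 0 := by
        linear_combination deriv T.X c ^ 2 * hiso +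
          (2 * q * e₁ * deriv T.X c + r * (e₁ * deriv T.Y c + e₂ * deriv T.X c)) * hc
      have h2 : e₂ ^ 2 * (p * deriv T.X c ^ 2 + 2 * q * deriv T.X c * deriv T.Y c +
          r * deriv T.Y c ^ 2) = 0 := by
        linear_combination deriv T.Y c ^ 2 * hiso -
          (p * (e₂ * deriv T.X c + e₁ * deriv T.Y c) + 2 * q * e₂ * deriv T.Y c) * hc
      rcases hene with he | he
      · exact (mul_eq_zero.mp h1).resolve_left (pow_ne_zero 2 he)
      · exact (mul_eq_zero.mp h2).resolve_left (pow_ne_zero 2 he)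
    obtain ⟨hc1, hc2⟩ := T.lin_zero c (H c) (by linear_combination H2 c - hQT)
    have hnd : ∀ s, (p * T.X s + q * T.Y s + m₁) * (T.X s - T.X c) +
        (q * T.X s + r * T.Y s + m₂) * (T.Y s - T.Y c) = 0 := by
      intro s
      linear_combination hG s c - (T.X s - T.X c) * hc1 - (T.Y s - T.Y c) * hc2
    have hψ1 : ∀ s, (p * T.X s + q * T.Y s + m₁) *
        ((T.X s - T.X c) * deriv T.Y s - (T.Y s - T.Y c) * deriv T.X s) = 0 := by
      intro s
      linear_combination deriv T.Y s * hnd s - (T.Y s - T.Y c) * H s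
    have hψ2 : ∀ s, (q * T.X s + r * T.Y s + m₂) *
        ((T.X s - T.X c) * deriv T.Y s - (T.Y s - T.Y c) * deriv T.X s) = 0 := by
      intro s
      linear_combination (T.X s - T.X c) * H s - deriv T.X s * hnd s
    have hn : ∀ s, p * T.X s + q * T.Y s + m₁ = 0 ∧ q * T.X s + r * T.Y s + m₂ = 0 := by
      intro s
      by_contra hcon
      have hev : ∀ᶠ t in 𝓝 s,
          (T.X t - T.X c) * deriv T.Y t - (T.Y t - T.Y c) * deriv T.X t = 0 := by
        by_cases h1 : p * T.X s + q * T.Y s + m₁ = 0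
        · have h2 : q * T.X s + r * T.Y s + m₂ ≠ 0 := fun h2 => hcon ⟨h1, h2⟩
          filter_upwards [(hn2 s).continuousAt.eventually_ne h2] with t ht
          exact (mul_eq_zero.mp (hψ2 t)).resolve_left ht
        · filter_upwards [(hn1 s).continuousAt.eventually_ne h1] with t ht
          exact (mul_eq_zero.mp (hψ1 t)).resolve_left ht
      have hder := deriv_zero_of_eventually hev
        ((((hx s).sub_const (T.X c)).mul (hy' s)).sub (((hy s).sub_const (T.Y c)).mul (hx' s)))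
      obtain ⟨hd2, hd1⟩ := T.lin_zero s (α := -(T.Y s - T.Y c)) (β := T.X s - T.X c)
        (by linear_combination hev.self_of_nhds) (by linear_combination hder)
      apply hcon
      constructor
      · linear_combination hc1 + p * hd1 - q * hd2
      · linear_combination hc2 + q * hd1 - r * hd2
    obtain ⟨a1, a2, a3⟩ := T.affine_zero zero_lt_one fun s _ => (hn s).1
    obtain ⟨-, a5, a6⟩ := T.affine_zero zero_lt_one fun s _ => (hn s).2
    exact hne ⟨a1, a2, a5, a3, a6⟩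
  have hΔ : p * r - q ^ 2 ≠ 0 := hdet.ne'
  obtain ⟨x₀, y₀, hc1, hc2⟩ : ∃ x₀ y₀ : ℝ, p * x₀ + q * y₀ + m₁ = 0 ∧ q * x₀ + r * y₀ + m₂ = 0 := by
    refine ⟨(-m₁ * r + m₂ * q) / (p * r - q ^ 2), (m₁ * q - m₂ * p) / (p * r - q ^ 2), ?_, ?_⟩
    · rw [← mul_div_assoc, ← mul_div_assoc, ← add_div, div_add' _ _ _ hΔ, div_eq_zero_iff]
      left
      ring
    · rw [← mul_div_assoc, ← mul_div_assoc, ← add_div, div_add' _ _ _ hΔ, div_eq_zero_iff]
      left
      ring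
  obtain ⟨ρ, hρ⟩ : ∃ ρ : ℝ, ∀ s, p * (T.X s - x₀) ^ 2 + 2 * q * (T.X s - x₀) * (T.Y s - y₀) +
      r * (T.Y s - y₀) ^ 2 = ρ := by
    refine ⟨p * (T.X 0 - x₀) ^ 2 + 2 * q * (T.X 0 - x₀) * (T.Y 0 - y₀) + r * (T.Y 0 - y₀) ^ 2,
      fun s => ?_⟩
    linear_combination hG s 0 - 2 * (T.X s - T.X 0) * hc1 - 2 * (T.Y s - T.Y 0) * hc2
  have hpρ : 0 < p * ρ := by
    by_contra hle
    push Not at hle
    have hp0 : p ≠ 0 := by
      rintro rfl
      nlinarith [sq_nonneg q]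
    have key : ∀ s ∈ Ioo (0 : ℝ) 1, 1 * T.X s + 0 * T.Y s + (-x₀) = 0 := by
      intro s _
      have h1 : p * ρ = (p * (T.X s - x₀) + q * (T.Y s - y₀)) ^ 2 +
          (p * r - q ^ 2) * (T.Y s - y₀) ^ 2 := by
        rw [← hρ s]
        ring
      have h2 : (T.Y s - y₀) ^ 2 = 0 := by
        nlinarith [sq_nonneg (p * (T.X s - x₀) + q * (T.Y s - y₀)), sq_nonneg (T.Y s - y₀)]
      have h3 : T.Y s - y₀ = 0 := by simpa using h2
      have h4 : (p * (T.X s - x₀)) ^ 2 = 0 := by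
        rw [h3] at h1
        nlinarith [sq_nonneg (p * (T.X s - x₀))]
      have h5 : p * (T.X s - x₀) = 0 := by simpa using h4
      have h6 := (mul_eq_zero.mp h5).resolve_left hp0
      linarith
    have := (T.affine_zero zero_lt_one key).1
    norm_num at this
  have hρ0 : ρ ≠ 0 := by
    rintro rfl
    simp at hpρ
  refine ⟨x₀, y₀, p / ρ, q / ρ, r / ρ, ?_, ?_, fun s => ?_⟩
  · have : p / ρ = p * ρ / ρ ^ 2 := by
      field_simp
    rw [this]
    positivity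
  · have : p / ρ * (r / ρ) - (q / ρ) ^ 2 = (p * r - q ^ 2) / ρ ^ 2 := by
      field_simp
    rw [this]
    positivity
  · have := hρ s
    field_simp
    linear_combination this

/-- The algebraic core: `W = (P,Q)` and its mirror image `W̄ = (P',Q')` in the tangent line satisfy
`⟨W(s) - W̄(t), γ(t) - γ(s)⟩ = 0` for nearby parameters. -/
lemma core {P Q P' Q' : ℝ → ℝ} {ε : ℝ} (hε : 0 < ε)
    (hE : ∀ s t, s < t → t < s + ε →
      P s * (T.X t - T.X s) + Q s * (T.Y t - T.Y s) =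
        P' t * (T.X t - T.X s) + Q' t * (T.Y t - T.Y s)) :
    ∃ a₁ b₁ c₁ a₂ b₂ c₂ c₁' c₂' : ℝ,
      (∀ s, P s = a₁ * T.X s + b₁ * T.Y s + c₁) ∧ (∀ s, Q s = a₂ * T.X s + b₂ * T.Y s + c₂) ∧
      (∀ s, P' s = -a₁ * T.X s - a₂ * T.Y s + c₁') ∧
      (∀ s, Q' s = -b₁ * T.X s - b₂ * T.Y s + c₂') := by
  set k : ℝ → ℝ := fun s => -(P s * T.X s + Q s * T.Y s) with hk
  set k' : ℝ → ℝ := fun s => -(P' s * T.X s + Q' s * T.Y s) with hk'
  have rel : ∀ s t, s < t → t < s + ε →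
      P s * T.X t + Q s * T.Y t + k s + (P' t * T.X s + Q' t * T.Y s + k' t) = 0 := by
    intro s t h1 h2
    simp only [hk, hk']
    linear_combination hE s t h1 h2
  have hloc : ∀ s₀, (∃ a b c, ∀ᶠ s in 𝓝 s₀, P s = a * T.X s + b * T.Y s + c) ∧
      (∃ a b c, ∀ᶠ s in 𝓝 s₀, Q s = a * T.X s + b * T.Y s + c) ∧
      (∃ a b c, ∀ᶠ s in 𝓝 s₀, k s = a * T.X s + b * T.Y s + c) := by
    intro s₀
    obtain ⟨t₁, ht₁, t₂, ht₂, t₃, ht₃, hD⟩ := T.exists_triple (a := s₀) (b := s₀ + ε) (by linarith)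
    have aux : ∀ t ∈ Ioo s₀ (s₀ + ε), ∀ᶠ s in 𝓝 s₀,
        P s * T.X t + Q s * T.Y t + k s + (P' t * T.X s + Q' t * T.Y s + k' t) = 0 := by
      intro t ht
      filter_upwards [Ioo_mem_nhds (a := t - ε) (b := t) (by linarith [ht.2]) ht.1] with s hs
      exact rel s t hs.2 (by linarith [hs.1])
    exact T.local_aff hD (aux t₁ ht₁) (aux t₂ ht₂) (aux t₃ ht₃)
  have hloc' : ∀ s₀, (∃ a b c, ∀ᶠ s in 𝓝 s₀, P' s = a * T.X s + b * T.Y s + c) ∧
      (∃ a b c, ∀ᶠ s in 𝓝 s₀, Q' s = a * T.X s + b * T.Y s + c) ∧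
      (∃ a b c, ∀ᶠ s in 𝓝 s₀, k' s = a * T.X s + b * T.Y s + c) := by
    intro s₀
    obtain ⟨t₁, ht₁, t₂, ht₂, t₃, ht₃, hD⟩ := T.exists_triple (a := s₀ - ε) (b := s₀) (by linarith)
    have aux : ∀ t ∈ Ioo (s₀ - ε) s₀, ∀ᶠ s in 𝓝 s₀,
        P' s * T.X t + Q' s * T.Y t + k' s + (P t * T.X s + Q t * T.Y s + k t) = 0 := by
      intro t ht
      filter_upwards [Ioo_mem_nhds (a := t) (b := t + ε) ht.2 (by linarith [ht.1])] with s hs
      linear_combination rel t s hs.1 hs.2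
    exact T.local_aff hD (aux t₁ ht₁) (aux t₂ ht₂) (aux t₃ ht₃)
  obtain ⟨a₁, b₁, c₁, hP⟩ := T.global_aff fun s => (hloc s).1
  obtain ⟨a₂, b₂, c₂, hQ⟩ := T.global_aff fun s => (hloc s).2.1
  obtain ⟨a₃, b₃, c₃, hK⟩ := T.global_aff fun s => (hloc s).2.2
  obtain ⟨a₁', b₁', c₁', hP'⟩ := T.global_aff fun s => (hloc' s).1
  obtain ⟨a₂', b₂', c₂', hQ'⟩ := T.global_aff fun s => (hloc' s).2.1
  obtain ⟨a₃', b₃', c₃', hK'⟩ := T.global_aff fun s => (hloc' s).2.2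
  have hbi := T.biaffine_zero hε (m₁₁ := a₁ + a₁') (m₂₁ := b₁ + a₂') (m₃₁ := c₁ + a₃')
    (m₁₂ := a₂ + b₁') (m₂₂ := b₂ + b₂') (m₃₂ := c₂ + b₃')
    (m₁₃ := a₃ + c₁') (m₂₃ := b₃ + c₂') (m₃₃ := c₃ + c₃') (by
      intro s t h1 h2
      have := rel s t h1 h2
      rw [hP s, hQ s, hK s, hP' t, hQ' t, hK' t] at this
      linear_combination this)
  obtain ⟨⟨e1, e2, -⟩, ⟨e3, e4, -⟩, -⟩ := hbi
  refine ⟨a₁, b₁, c₁, a₂, b₂, c₂, c₁', c₂', hP, hQ, fun s => ?_, fun s => ?_⟩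
  · rw [hP' s]
    linear_combination T.X s * e1 + T.Y s * e3
  · rw [hQ' s]
    linear_combination T.X s * e2 + T.Y s * e4

lemma definite {p q r z₁ z₂ : ℝ} (hp : 0 < p) (hΔ : 0 < p * r - q ^ 2)
    (h : p * z₁ ^ 2 + 2 * q * z₁ * z₂ + r * z₂ ^ 2 ≤ 0) : z₁ = 0 ∧ z₂ = 0 := by
  have h1 : p * (p * z₁ ^ 2 + 2 * q * z₁ * z₂ + r * z₂ ^ 2) =
      (p * z₁ + q * z₂) ^ 2 + (p * r - q ^ 2) * z₂ ^ 2 := by ring
  have h0 : p * (p * z₁ ^ 2 + 2 * q * z₁ * z₂ + r * z₂ ^ 2) ≤ 0 :=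
    mul_nonpos_of_nonneg_of_nonpos hp.le h
  have h2 : z₂ ^ 2 = 0 := by
    nlinarith [sq_nonneg (p * z₁ + q * z₂), sq_nonneg z₂]
  have h3 : z₂ = 0 := by simpa using h2
  have h4 : (p * z₁) ^ 2 = 0 := by
    rw [h3] at h1 h0
    nlinarith [sq_nonneg (p * z₁)]
  have h5 : p * z₁ = 0 := by simpa using h4
  exact ⟨(mul_eq_zero.mp h5).resolve_left hp.ne', h3⟩

/-- A closed curve of positive curvature lying on an ellipse covers the whole ellipse. -/
lemma onto {x₀ y₀ p q r : ℝ} (hp : 0 < p) (hΔ : 0 < p * r - q ^ 2)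
    (h : ∀ s, p * (T.X s - x₀) ^ 2 + 2 * q * (T.X s - x₀) * (T.Y s - y₀) +
      r * (T.Y s - y₀) ^ 2 = 1) (x y : ℝ)
    (hxy : p * (x - x₀) ^ 2 + 2 * q * (x - x₀) * (y - y₀) + r * (y - y₀) ^ 2 = 1) :
    ∃ s, T.X s = x ∧ T.Y s = y := by
  have hx := T.hasDerivX
  have hy := T.hasDerivY
  obtain ⟨e₁, he₁⟩ : ∃ e₁, e₁ = x - x₀ := ⟨_, rfl⟩
  obtain ⟨e₂, he₂⟩ : ∃ e₂, e₂ = y - y₀ := ⟨_, rfl⟩
  rw [← he₁, ← he₂] at hxy
  set φ : ℝ → ℝ := fun s => (p * e₁ + q * e₂) * (T.X s - x₀) + (q * e₁ + r * e₂) * (T.Y s - y₀)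
    with hφ
  have hφd : ∀ s, HasDerivAt φ ((p * e₁ + q * e₂) * deriv T.X s + (q * e₁ + r * e₂) * deriv T.Y s) s :=
    fun s => (((hx s).sub_const x₀).const_mul _).add (((hy s).sub_const y₀).const_mul _)
  have hper : Function.Periodic φ T.L := by
    intro s
    simp only [hφ, T.perX, T.perY]
  obtain ⟨c, -, hmax⟩ := isCompact_Icc.exists_isMaxOn (nonempty_Icc.mpr T.L_pos.le)
    (fun s _ => (hφd s).continuousAt.continuousWithinAt)
  have hglob : ∀ s, φ s ≤ φ c := by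
    intro s
    obtain ⟨t, ht, hft⟩ := hper.exists_mem_Ico₀ T.L_pos s
    rw [hft]
    exact hmax (Ico_subset_Icc_self ht)
  have hcrit : (p * e₁ + q * e₂) * deriv T.X c + (q * e₁ + r * e₂) * deriv T.Y c = 0 :=
    IsLocalMax.hasDerivAt_eq_zero (Eventually.of_forall hglob) (hφd c)
  have hell : (p * (T.X c - x₀) + q * (T.Y c - y₀)) * deriv T.X c +
      (q * (T.X c - x₀) + r * (T.Y c - y₀)) * deriv T.Y c = 0 := by
    have hu := (hx c).sub_const x₀
    have hv := (hy c).sub_const y₀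
    have := deriv_zero_of_eventually (f := fun s => p * ((T.X s - x₀) * (T.X s - x₀)) +
        2 * q * ((T.X s - x₀) * (T.Y s - y₀)) + r * ((T.Y s - y₀) * (T.Y s - y₀)) - 1)
      (Eventually.of_forall fun t => by linear_combination h t)
      (((((hu.mul hu).const_mul p).add ((hu.mul hv).const_mul (2 * q))).add
        ((hv.mul hv).const_mul r)).sub_const 1)
    linear_combination this / 2
  have hdet : e₁ * (T.Y c - y₀) - e₂ * (T.X c - x₀) = 0 := by
    have h1 : (p * deriv T.X c + q * deriv T.Y c) * (e₁ * (T.Y c - y₀) - e₂ * (T.X c - x₀)) = 0 := by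
      linear_combination (T.Y c - y₀) * hcrit - e₂ * hell
    have h2 : (q * deriv T.X c + r * deriv T.Y c) * (e₁ * (T.Y c - y₀) - e₂ * (T.X c - x₀)) = 0 := by
      linear_combination e₁ * hell - (T.X c - x₀) * hcrit
    by_contra hne
    have a1 := (mul_eq_zero.mp h1).resolve_right hne
    have a2 := (mul_eq_zero.mp h2).resolve_right hne
    have b1 : (p * r - q ^ 2) * deriv T.X c = 0 := by linear_combination r * a1 - q * a2
    have b2 : (p * r - q ^ 2) * deriv T.Y c = 0 := by linear_combination p * a2 - q * a1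
    have c1 := (mul_eq_zero.mp b1).resolve_left hΔ.ne'
    have c2 := (mul_eq_zero.mp b2).resolve_left hΔ.ne'
    have := T.unit_speed c
    rw [c1, c2] at this
    norm_num at this
  have hsq : φ c ^ 2 = 1 := by
    simp only [hφ]
    have h1 := h c
    linear_combination (p * (T.X c - x₀) ^ 2 + 2 * q * (T.X c - x₀) * (T.Y c - y₀) +
      r * (T.Y c - y₀) ^ 2) * hxy + h1 -
      (p * r - q ^ 2) * (e₁ * (T.Y c - y₀) - e₂ * (T.X c - x₀)) * hdet
  have hcases : φ c = 1 ∨ φ c = -1 := by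
    have : (φ c - 1) * (φ c + 1) = 0 := by linear_combination hsq
    rcases mul_eq_zero.mp this with h1 | h1
    · left; linarith
    · right; linarith
  rcases hcases with h1 | h1
  · refine ⟨c, ?_⟩
    have := definite (z₁ := T.X c - x₀ - e₁) (z₂ := T.Y c - y₀ - e₂) hp hΔ (by
      simp only [hφ] at h1
      have h2 := h c
      apply le_of_eq
      linear_combination h2 + hxy - 2 * h1)
    constructor
    · linarith [this.1]
    · linarith [this.2]
  · exfalso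
    have key : ∀ s ∈ Ioo (0 : ℝ) 1, 1 * T.X s + 0 * T.Y s + (-(x₀ - e₁)) = 0 := by
      intro s _
      have h3 := hglob s
      rw [h1] at h3
      simp only [hφ] at h3
      have := definite (z₁ := T.X s - x₀ + e₁) (z₂ := T.Y s - y₀ + e₂) hp hΔ (by
        have h2 := h s
        nlinarith)
      linarith [this.1]
    have := (T.affine_zero zero_lt_one key).1
    norm_num at this

end Table

/-- First component of the mirror image `u - 2⟨u,N⟩N` of a direction `u = (ux,uy)` in the tangent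
line at the boundary point `γ(s)`; here `N = (-Y'(s), X'(s))` is the unit normal. -/
noncomputable def reflX (T : Table) (s ux uy : ℝ) : ℝ :=
  ux - 2 * (ux * (-deriv T.Y s) + uy * deriv T.X s) * (-deriv T.Y s)

/-- Second component of the mirror image `u - 2⟨u,N⟩N`. -/
noncomputable def reflY (T : Table) (s ux uy : ℝ) : ℝ :=
  uy - 2 * (ux * (-deriv T.Y s) + uy * deriv T.X s) * deriv T.X s

/-- The function `F(s,u) = ⟨W(s),u⟩ = P(s) ux + Q(s) uy` on the phase space (boundary point `γ(s)`,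
unit outgoing direction `u`) takes the same value before and after every billiard bounce
`(s₁,u) ↦ (s₂,u')` with `s₁ < s₂ < s₁ + ε`: the ray from `γ(s₁)` in the unit direction `u` hits the
boundary at `γ(s₂) = γ(s₁) + ℓ u`, `ℓ > 0`, and leaves in the mirrored direction `u'`. -/
def IsLinearIntegral (T : Table) (P Q : ℝ → ℝ) (ε : ℝ) : Prop :=
  ∀ s₁ s₂ ux uy ℓ : ℝ, s₁ < s₂ → s₂ < s₁ + ε → 0 < ℓ → ux ^ 2 + uy ^ 2 = 1 →
    T.X s₂ = T.X s₁ + ℓ * ux → T.Y s₂ = T.Y s₁ + ℓ * uy →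
    P s₁ * ux + Q s₁ * uy = P s₂ * reflX T s₂ ux uy + Q s₂ * reflY T s₂ ux uy

/-- If the billiard in a closed `C^2` curve of positive curvature has, on the bounces near the
boundary (arclength gap `< ε`), a conserved quantity `⟨W(s),u⟩` that is linear in the velocity `u`,
with `W` an arbitrary not identically zero vector field along the boundary (no regularity, no
periodicity assumed), then the curve is an ellipse. -/
theorem ellipse_of_integral (T : Table) (P Q : ℝ → ℝ) (ε : ℝ) (hε : 0 < ε)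
    (hW : ∃ s, P s ≠ 0 ∨ Q s ≠ 0)
    (hinv : IsLinearIntegral T P Q ε) :
    ∃ x₀ y₀ p q r : ℝ, 0 < p ∧ 0 < p * r - q ^ 2 ∧ ∀ x y : ℝ,
      (∃ s, T.X s = x ∧ T.Y s = y) ↔
        p * (x - x₀) ^ 2 + 2 * q * (x - x₀) * (y - y₀) + r * (y - y₀) ^ 2 = 1 := by
  -- it suffices to put the curve on an ellipse
  suffices hmain : ∃ x₀ y₀ p q r : ℝ, 0 < p ∧ 0 < p * r - q ^ 2 ∧
      ∀ s, p * (T.X s - x₀) ^ 2 + 2 * q * (T.X s - x₀) * (T.Y s - y₀) +
        r * (T.Y s - y₀) ^ 2 = 1 by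
    obtain ⟨x₀, y₀, p, q, r, hp, hΔ, h⟩ := hmain
    refine ⟨x₀, y₀, p, q, r, hp, hΔ, fun x y => ⟨?_, T.onto hp hΔ h x y⟩⟩
    rintro ⟨s, rfl, rfl⟩
    exact h s
  set P' : ℝ → ℝ := fun s =>
    P s - 2 * (P s * (-deriv T.Y s) + Q s * deriv T.X s) * (-deriv T.Y s) with hP'
  set Q' : ℝ → ℝ := fun s =>
    Q s - 2 * (P s * (-deriv T.Y s) + Q s * deriv T.X s) * deriv T.X s with hQ'
  have hE : ∀ s t, s < t → t < s + ε →
      P s * (T.X t - T.X s) + Q s * (T.Y t - T.Y s) =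
        P' t * (T.X t - T.X s) + Q' t * (T.Y t - T.Y s) := by
    intro s t h1 h2
    by_cases hd : (T.X t - T.X s) ^ 2 + (T.Y t - T.Y s) ^ 2 = 0
    · have hdx : T.X t - T.X s = 0 := by
        have : (T.X t - T.X s) ^ 2 = 0 := by
          nlinarith [sq_nonneg (T.X t - T.X s), sq_nonneg (T.Y t - T.Y s)]
        simpa using this
      have hdy : T.Y t - T.Y s = 0 := by
        have : (T.Y t - T.Y s) ^ 2 = 0 := by
          nlinarith [sq_nonneg (T.X t - T.X s), sq_nonneg (T.Y t - T.Y s)]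
        simpa using this
      rw [hdx, hdy]
      ring
    · have hpos : 0 < (T.X t - T.X s) ^ 2 + (T.Y t - T.Y s) ^ 2 :=
        lt_of_le_of_ne (by positivity) (Ne.symm hd)
      obtain ⟨ℓ, hℓ⟩ : ∃ ℓ, ℓ = Real.sqrt ((T.X t - T.X s) ^ 2 + (T.Y t - T.Y s) ^ 2) := ⟨_, rfl⟩
      have hℓpos : 0 < ℓ := by
        rw [hℓ]
        exact Real.sqrt_pos.mpr hpos
      have hℓsq : ℓ ^ 2 = (T.X t - T.X s) ^ 2 + (T.Y t - T.Y s) ^ 2 := by
        rw [hℓ]
        exact Real.sq_sqrt hpos.le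
      have hux : ℓ * ((T.X t - T.X s) / ℓ) = T.X t - T.X s := mul_div_cancel₀ _ hℓpos.ne'
      have huy : ℓ * ((T.Y t - T.Y s) / ℓ) = T.Y t - T.Y s := mul_div_cancel₀ _ hℓpos.ne'
      have := hinv s t ((T.X t - T.X s) / ℓ) ((T.Y t - T.Y s) / ℓ) ℓ h1 h2 hℓpos
        (by rw [div_pow, div_pow, ← add_div, ← hℓsq, div_self (pow_ne_zero 2 hℓpos.ne')])
        (by rw [hux]; ring) (by rw [huy]; ring)
      rw [← hux, ← huy]
      simp only [hP', hQ']
      unfold reflX reflY at this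
      linear_combination ℓ * this
  obtain ⟨a₁, b₁, c₁, a₂, b₂, c₂, c₁', c₂', hP, hQ, hPP, hQQ⟩ := T.core hε hE
  -- the normal part of `W`
  have Hn : ∀ s, ((2 * a₁) * T.X s + (a₂ + b₁) * T.Y s + (c₁ - c₁')) * deriv T.X s +
      ((a₂ + b₁) * T.X s + (2 * b₂) * T.Y s + (c₂ - c₂')) * deriv T.Y s = 0 := by
    intro s
    have h1 : (P s - P' s) * deriv T.X s + (Q s - Q' s) * deriv T.Y s = 0 := by
      simp only [hP', hQ']
      ring
    rw [hPP s, hQQ s, hP s, hQ s] at h1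
    linear_combination h1
  -- the tangential part of `W`
  have Ht : ∀ s, ((a₂ - b₁) * T.X s + 0 * T.Y s + (c₂ + c₂')) * deriv T.X s +
      (0 * T.X s + (a₂ - b₁) * T.Y s + (-(c₁ + c₁'))) * deriv T.Y s = 0 := by
    intro s
    have h1 : (P s + P' s) * (-deriv T.Y s) + (Q s + Q' s) * deriv T.X s = 0 := by
      simp only [hP', hQ']
      linear_combination (-2 * (P s * (-deriv T.Y s) + Q s * deriv T.X s)) * T.unit_speed s
    rw [hPP s, hQQ s, hP s, hQ s] at h1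
    linear_combination h1
  by_cases hn : 2 * a₁ = 0 ∧ a₂ + b₁ = 0 ∧ 2 * b₂ = 0 ∧ c₁ - c₁' = 0 ∧ c₂ - c₂' = 0
  · by_cases ht : a₂ - b₁ = 0 ∧ (0 : ℝ) = 0 ∧ a₂ - b₁ = 0 ∧ c₂ + c₂' = 0 ∧ -(c₁ + c₁') = 0
    · exfalso
      obtain ⟨n1, n2, n3, n4, n5⟩ := hn
      obtain ⟨t1, -, -, t4, t5⟩ := ht
      obtain ⟨s, hs⟩ := hW
      have ea₁ : a₁ = 0 := by linarith
      have eb₂ : b₂ = 0 := by linarith
      have ea₂ : a₂ = 0 := by linarith
      have eb₁ : b₁ = 0 := by linarith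
      have ec₁ : c₁ = 0 := by linarith
      have ec₂ : c₂ = 0 := by linarith
      rcases hs with hs | hs
      · apply hs
        rw [hP s, ea₁, eb₁, ec₁]
        ring
      · apply hs
        rw [hQ s, ea₂, eb₂, ec₂]
        ring
    · exact T.conic ht Ht
  · exact T.conic hn Hn

/-- Conversely (Joachimsthal), on an ellipse `⟨A(z-c),z-c⟩ = 1` the field `W = A(γ-c)` gives a
conserved quantity, for all bounces. -/
theorem integral_of_ellipse (T : Table) {x₀ y₀ p q r : ℝ}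
    (h : ∀ s, p * (T.X s - x₀) ^ 2 + 2 * q * (T.X s - x₀) * (T.Y s - y₀) +
      r * (T.Y s - y₀) ^ 2 = 1) (ε : ℝ) :
    (∃ s, p * (T.X s - x₀) + q * (T.Y s - y₀) ≠ 0 ∨ q * (T.X s - x₀) + r * (T.Y s - y₀) ≠ 0) ∧
    IsLinearIntegral T (fun s => p * (T.X s - x₀) + q * (T.Y s - y₀))
      (fun s => q * (T.X s - x₀) + r * (T.Y s - y₀)) ε := by
  constructor
  · refine ⟨0, ?_⟩
    by_contra hcon
    push Not at hcon
    have := h 0
    have h2 : p * (T.X 0 - x₀) ^ 2 + 2 * q * (T.X 0 - x₀) * (T.Y 0 - y₀) + r * (T.Y 0 - y₀) ^ 2 = 0 := by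
      linear_combination (T.X 0 - x₀) * hcon.1 + (T.Y 0 - y₀) * hcon.2
    rw [h2] at this
    norm_num at this
  · intro s₁ s₂ ux uy ℓ _ _ hℓ _ hX hY
    have hell : (p * (T.X s₂ - x₀) + q * (T.Y s₂ - y₀)) * deriv T.X s₂ +
        (q * (T.X s₂ - x₀) + r * (T.Y s₂ - y₀)) * deriv T.Y s₂ = 0 := by
      have hu := (T.hasDerivX s₂).sub_const x₀
      have hv := (T.hasDerivY s₂).sub_const y₀
      have := deriv_zero_of_eventually (f := fun s => p * ((T.X s - x₀) * (T.X s - x₀)) +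
          2 * q * ((T.X s - x₀) * (T.Y s - y₀)) + r * ((T.Y s - y₀) * (T.Y s - y₀)) - 1)
        (Eventually.of_forall fun t => by linear_combination h t)
        (((((hu.mul hu).const_mul p).add ((hu.mul hv).const_mul (2 * q))).add
          ((hv.mul hv).const_mul r)).sub_const 1)
      linear_combination this / 2
    have hsum : ℓ * ((p * (T.X s₁ - x₀) + q * (T.Y s₁ - y₀) + (p * (T.X s₂ - x₀) + q * (T.Y s₂ - y₀))) * ux +
        (q * (T.X s₁ - x₀) + r * (T.Y s₁ - y₀) + (q * (T.X s₂ - x₀) + r * (T.Y s₂ - y₀))) * uy) = 0 := by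
      have h1 := h s₁
      have h2 := h s₂
      have e1 : ℓ * ux = T.X s₂ - T.X s₁ := by linarith
      have e2 : ℓ * uy = T.Y s₂ - T.Y s₁ := by linarith
      linear_combination (p * (T.X s₁ - x₀) + q * (T.Y s₁ - y₀) + (p * (T.X s₂ - x₀) + q * (T.Y s₂ - y₀))) * e1 +
        (q * (T.X s₁ - x₀) + r * (T.Y s₁ - y₀) + (q * (T.X s₂ - x₀) + r * (T.Y s₂ - y₀))) * e2 + h2 - h1
    have hsum' := (mul_eq_zero.mp hsum).resolve_left hℓ.ne'
    unfold reflX reflY
    have hus := T.unit_speed s₂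
    linear_combination hsum' +
      2 * ((p * (T.X s₂ - x₀) + q * (T.Y s₂ - y₀)) * ux + (q * (T.X s₂ - x₀) + r * (T.Y s₂ - y₀)) * uy) * hus
      - 2 * (ux * deriv T.X s₂ + uy * deriv T.Y s₂) * hell

/-- **Characterisation of ellipses by near-boundary integrals linear in the velocity.**
A closed `C^2` curve of positive curvature admits, for some `ε > 0`, a not identically zero vector
field `W = (P,Q)` along it such that `⟨W(s),u⟩` is conserved by all billiard bounces with arclength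
gap less than `ε`, if and only if the curve is an ellipse. -/
theorem result (T : Table) :
    (∃ (P Q : ℝ → ℝ) (ε : ℝ), 0 < ε ∧ (∃ s, P s ≠ 0 ∨ Q s ≠ 0) ∧ IsLinearIntegral T P Q ε) ↔
    ∃ x₀ y₀ p q r : ℝ, 0 < p ∧ 0 < p * r - q ^ 2 ∧ ∀ x y : ℝ,
      (∃ s, T.X s = x ∧ T.Y s = y) ↔
        p * (x - x₀) ^ 2 + 2 * q * (x - x₀) * (y - y₀) + r * (y - y₀) ^ 2 = 1 := by
  constructor
  · rintro ⟨P, Q, ε, hε, hW, hinv⟩
    exact ellipse_of_integral T P Q ε hε hW hinv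
  · rintro ⟨x₀, y₀, p, q, r, -, -, h⟩
    have h' : ∀ s, p * (T.X s - x₀) ^ 2 + 2 * q * (T.X s - x₀) * (T.Y s - y₀) +
        r * (T.Y s - y₀) ^ 2 = 1 := fun s => (h _ _).mp ⟨s, rfl, rfl⟩
    obtain ⟨h1, h2⟩ := integral_of_ellipse T h' 1
    exact ⟨_, _, 1, one_pos, h1, h2⟩

end Vale.Agent.Results.P097.LinearIntegral
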